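import Vale.Agent.P032.Words5.PentFin
import Vale.Agent.P032.S5.H220.NoFrozen
import Vale.Agent.P032.S5.H450.K5a
import Vale.Agent.P032.S5.H843.Hand5

/-!
# P032: no clean five coloured point
-/

open Set Filter Topology Metric

noncomputable section

namespace Vale.Agent.P032.S5.H229

open Vale.Agent.P032.Six Vale.Agent.P032.S5.H122 Vale.Agent.P032.S5.H450

variable {U : Fin 6 → Set ℂ} {T : ℂ → Set (Fin 6)} {z : ℂ} {e : Fin 6 → Fin 6}

theorem adj5 : ∀ a b : Fin 6, W5.adjN a.val b.val = true ↔ Disjoint (ixs a) (ixs b) := by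
  decide +kernel

theorem ant5 : ∀ a b : Fin 6, W5.antN a.val b.val = true ↔ ant a b = true := by
  decide +kernel

theorem prL5 : ∀ a b : Fin 6, W5.prL a.val b.val = true ↔ tog a b = true := by
  decide +kernel

/-- the palettes of the frozen events in the form of 220 -/
theorem FZ_tr (i : Fin 4) (x : Fin 5) : ∃ (i' : Fin 3) (a : Fin 5) (s : Bool) (q : Fin 6) (t : Bool),
    ∀ k : Fin 6,
      (Words.Pent.trH a s q t (Words.Pent.fx i') k = (W5.FZ i x k).1 ∨
        Words.Pent.trH a s q t (Words.Pent.fx i') k = (W5.FZ i x k).2) ∧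
      (Words.Pent.trH a s q t (Words.Pent.fy i') k = (W5.FZ i x k).1 ∨
        Words.Pent.trH a s q t (Words.Pent.fy i') k = (W5.FZ i x k).2) := by
  fin_cases i
  · refine ⟨0, x, false, 0, false, ?_⟩
    revert x
    decide +kernel
  · refine ⟨2, x, false, 0, false, ?_⟩
    revert x
    decide +kernel
  · refine ⟨2, x, true, 0, false, ?_⟩
    revert x
    decide +kernel
  · refine ⟨1, x, false, 2, false, ?_⟩
    revert x
    decide +kernel

/-- **The word of a clean five coloured centre.** -/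
theorem cn_pent (C : Cn U T z e) : W5.Pent (X5 T z e) where
  closed := X5_closed
  cover := cover C.irr
  per := X5_per
  gen := by
    refine (gen (T := T) (z := z) (e := e) C.irr).mono ?_
    rintro u ⟨l, hl⟩
    exact ⟨l, fun m hm => (hl m).1 hm⟩
  two u a b c ha hb hc hab := by
    rcases two C ha hb hc with h | h | h
    · exact absurd h hab
    · exact Or.inr h.symm
    · exact Or.inl h
  pair u a b ha hb := (prL5 a b).2 (tog_of C ha hb)
  sixty u a b ha hb := by
    have e1 : ∀ n, u ∈ X5 T z e n ↔ n = a := fun n => ⟨ha n, fun h => by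
      obtain ⟨l, hl⟩ := cover C.irr (T := T) (z := z) (e := e) u
      rw [h, ← ha l hl]; exact hl⟩
    have e2 : ∀ n, u + 1 ∈ X5 T z e n ↔ n = b := fun n => ⟨hb n, fun h => by
      obtain ⟨l, hl⟩ := cover C.irr (T := T) (z := z) (e := e) (u + 1)
      rw [h, ← hb l hl]; exact hl⟩
    exact (adj5 a b).2 (sixty C e1 e2)
  anti u a b ha hb := by
    have e1 : ∀ n, u ∈ X5 T z e n ↔ n = a := fun n => ⟨ha n, fun h => by
      obtain ⟨l, hl⟩ := cover C.irr (T := T) (z := z) (e := e) u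
      rw [h, ← ha l hl]; exact hl⟩
    have e2 : ∀ n, u + 3 ∈ X5 T z e n ↔ n = b := fun n => ⟨hb n, fun h => by
      obtain ⟨l, hl⟩ := cover C.irr (T := T) (z := z) (e := e) (u + 3)
      rw [h, ← hb l hl]; exact hl⟩
    exact (ant5 a b).2 (anti3 C e1 e2)
  swap1 u a a' b b' h1 h2 h3 h4 h5 _ := by
    unfold W5.sw1
    rw [Bool.or_eq_true, adj5, adj5]
    exact swap1 C h1 h2 h3 h4 ((adj5 a b).1 h5)
  swap3 u a a' b b' h1 h2 h3 h4 h5 _ := by
    unfold W5.sw3
    rw [Bool.or_eq_true, ant5, ant5]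
    exact swap3 C h1 h2 h3 h4 ((ant5 a b).1 h5)
  nofr u x i hk := by
    obtain ⟨i', a, s, q, t, h⟩ := FZ_tr i x
    refine H220.no_frozen C i' a s q t u (fun k => ?_) fun k => ?_
    · rcases (h k).1 with h1 | h1
      · rw [h1]; exact (hk k).1
      · rw [h1]; exact (hk k).2
    · rcases (h k).2 with h1 | h1
      · rw [h1]; exact (hk k).1
      · rw [h1]; exact (hk k).2

theorem lets : ∀ j : Fin 5, j.castSucc ≠ (5 : Fin 6) ∧ (j + 2).castSucc ≠ (j + 3).castSucc ∧
    ixs (j + 2).castSucc ∪ ixs (j + 3).castSucc = (ixs j.castSucc ∪ ixs 5)ᶜ := by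
  decide +kernel

/-- no clean five coloured point -/
theorem no_five_gen (h : Irr U T)
    (hmin : ∀ z, 4 ≤ (T z).ncard → ∀ s, s ⊆ T z → s ≠ T z →
      ¬ ∀ᶠ w in 𝓝 z, ∃ i ∈ s, w ∈ U i ∨ (w ∈ XX U ∧ i ∈ Pal U w))
    (hl : ∀ X c v x a d, Nd T X c v x → a ∈ X → a ∉ T c → d ∈ Xᶜ → d ∉ T c →
      ∀ y, dist y c = 1 → (T y).ncard ≤ 3)
    (h5 : (T z).ncard = 5) (h3 : ∀ y, dist y z = 1 → (T y).ncard ≤ 3) : False := by
  obtain ⟨e, C⟩ := exists_cn h hmin h5 h3
  refine (cn_pent C).elim fun j => ?_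
  obtain ⟨k1, k2, k3⟩ := lets j
  rcases cnt5_cases_gen C hmin hl k1 k2 k3 with H | H | ⟨s, t, hs, ht⟩
  · exact Or.inl fun u hu => H u hu.1 hu.2
  · exact Or.inr (Or.inl fun u hu => H u hu.1 hu.2)
  · refine Or.inr (Or.inr ⟨fun u v hu hv => ?_, fun u v hu hv => ?_⟩)
    · obtain ⟨n, hn⟩ := hs u hu.1 hu.2
      obtain ⟨m, hm⟩ := hs v hv.1 hv.2
      exact ⟨m - n, by rw [hn, hm]; push_cast; ring⟩
    · obtain ⟨n, hn⟩ := ht u hu.1 hu.2
      obtain ⟨m, hm⟩ := ht v hv.1 hv.2
      exact ⟨m - n, by rw [hn, hm]; push_cast; ring⟩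

/-- **No clean five coloured point** in the form used by the plane theorem. -/
theorem no_five : H843.NoFive := by
  intro U T h hmin hD z h5 h3
  refine no_five_gen h hmin (fun X c v x a d N ha hac hd hdc y hy => ?_) h5 h3
  by_contra h1
  exact hD c y (by rw [dist_comm]; exact hy) (by omega) (dpt_of_light h N ha hac hd hdc)

end Vale.Agent.P032.S5.H229
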